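import Vale.Agent.P224.Defs

/-! The integrals of `cos^k sin^l` and the volumes of spheres. -/

open MeasureTheory Real

namespace Vale.Agent.P224

abbrev E (n : ℕ) : Type := EuclideanSpace ℝ (Fin n)

noncomputable def II (k l : ℕ) : ℝ := ∫ t in (0 : ℝ)..π / 2, cos t ^ k * sin t ^ l

theorem II_int (k l : ℕ) (a b : ℝ) :
    IntervalIntegrable (fun t => cos t ^ k * sin t ^ l) volume a b :=
  Continuous.intervalIntegrable (by fun_prop) _ _

theorem II_split (k l : ℕ) : II k l = II (k + 2) l + II k (l + 2) := by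
  rw [II, II, II, ← intervalIntegral.integral_add (II_int _ _ _ _) (II_int _ _ _ _)]
  refine intervalIntegral.integral_congr fun t _ => ?_
  have := sin_sq_add_cos_sq t
  linear_combination (-(cos t ^ k * sin t ^ l)) * this

theorem II_parts (k l : ℕ) : ((l : ℝ) + 1) * II (k + 2) l = (k + 1) * II k (l + 2) := by
  have h := intervalIntegral.integral_eq_sub_of_hasDerivAt (a := 0) (b := π / 2)
    (f := fun t => cos t ^ (k + 1) * sin t ^ (l + 1))
    (f' := fun t => ((l : ℝ) + 1) * (cos t ^ (k + 2) * sin t ^ l) -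
      ((k : ℝ) + 1) * (cos t ^ k * sin t ^ (l + 2)))
    (fun t _ => (((hasDerivAt_cos t).pow (k + 1)).mul ((hasDerivAt_sin t).pow (l + 1))).congr_deriv
      (by simp only [Pi.pow_apply, Nat.add_sub_cancel]; push_cast; ring))
    (Continuous.intervalIntegrable (by fun_prop) _ _)
  rw [intervalIntegral.integral_sub ((II_int _ _ _ _).const_mul _) ((II_int _ _ _ _).const_mul _),
    intervalIntegral.integral_const_mul, intervalIntegral.integral_const_mul] at h
  simp only [cos_pi_div_two, sin_zero, ne_eq, Nat.add_eq_zero_iff, one_ne_zero, and_false,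
    not_false_eq_true, zero_pow, zero_mul, mul_zero, sub_zero] at h
  exact sub_eq_zero.1 h

theorem II_left (k l : ℕ) : ((k : ℝ) + l + 2) * II (k + 2) l = (k + 1) * II k l := by
  rw [II_split k l]; linear_combination II_parts k l

theorem II_right (k l : ℕ) : ((k : ℝ) + l + 2) * II k (l + 2) = (l + 1) * II k l := by
  rw [II_split k l]; linear_combination -II_parts k l

theorem sphVol_pos (n : ℕ) : 0 < sphVol n := by
  unfold sphVol
  have := Gamma_pos_of_pos (show 0 < ((n : ℝ) + 1) / 2 by positivity)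
  have := pi_pos
  positivity

theorem sphVol_rec (n : ℕ) : ((n : ℝ) + 1) * sphVol (n + 2) = 2 * π * sphVol n := by
  have h : (((n + 2 : ℕ) : ℝ) + 1) / 2 = ((n : ℝ) + 1) / 2 + 1 := by push_cast; ring
  have := (Gamma_pos_of_pos (show 0 < ((n : ℝ) + 1) / 2 by positivity)).ne'
  rw [sphVol, sphVol, h, Gamma_add_one (by positivity), rpow_add pi_pos, rpow_one]
  field_simp

theorem sphVol_zero : sphVol 0 = 2 := by
  have := (sqrt_pos.2 pi_pos).ne'
  simp only [sphVol, Nat.cast_zero, zero_add, Gamma_one_half_eq, ← sqrt_eq_rpow]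
  field_simp

theorem sphVol_one : sphVol 1 = 2 * π := by
  simp [sphVol]

theorem II_sph (k l : ℕ) : II k l * sphVol k * sphVol l = sphVol (k + l + 1) := by
  have s2 : sphVol 2 = 4 * π := by
    have := sphVol_rec 0; rw [sphVol_zero] at this; simp at this; linarith
  have s3 : sphVol 3 = 2 * π * π := by
    have := sphVol_rec 1; rw [sphVol_one] at this; norm_num at this; linarith
  have base : ∀ l, II 0 l * sphVol 0 * sphVol l = sphVol (0 + l + 1) ∧
      II 1 l * sphVol 1 * sphVol l = sphVol (1 + l + 1) := by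
    intro l
    induction l using Nat.twoStepInduction with
    | zero => simp [II, sphVol_zero, sphVol_one, s2]; constructor <;> ring
    | one =>
      have : II 1 1 = 1 / 2 := by
        simp only [II, pow_one, mul_comm (cos _)]
        rw [integral_sin_mul_cos₁]; simp
      rw [this]
      simp [II, sphVol_zero, sphVol_one, s2, s3]; constructor <;> ring
    | more l h _ =>
      have r := sphVol_rec l
      have hl : ((l : ℝ) + 1) ≠ 0 := by positivity
      constructor
      · have r2 := sphVol_rec (0 + l + 1)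
        have := II_right 0 l
        refine mul_left_cancel₀ (show ((l : ℝ) + 2) * (l + 1) ≠ 0 by positivity) ?_
        rw [show 0 + (l + 2) + 1 = 0 + l + 1 + 2 by ring]
        push_cast at r2 this
        linear_combination (II 0 (l + 2) * sphVol 0 * (l + 2)) * r +
          (sphVol 0 * 2 * π * sphVol l) * this + (l + 1) * 2 * π * h.1 - (l + 1) * r2
      · have r2 := sphVol_rec (1 + l + 1)
        have := II_right 1 l
        refine mul_left_cancel₀ (show ((l : ℝ) + 3) * (l + 1) ≠ 0 by positivity) ?_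
        rw [show 1 + (l + 2) + 1 = 1 + l + 1 + 2 by ring]
        push_cast at r2 this
        linear_combination (II 1 (l + 2) * sphVol 1 * (l + 3)) * r +
          (sphVol 1 * 2 * π * sphVol l) * this + (l + 1) * 2 * π * h.2 - (l + 1) * r2
  induction k using Nat.twoStepInduction with
  | zero => exact (base l).1
  | one => exact (base l).2
  | more k h _ =>
    have r := sphVol_rec k
    have r2 := sphVol_rec (k + l + 1)
    have := II_left k l
    refine mul_left_cancel₀ (show ((k : ℝ) + l + 2) * (k + 1) ≠ 0 by positivity) ?_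
    rw [show k + 2 + l + 1 = k + l + 1 + 2 by ring]
    push_cast at r2
    linear_combination (II (k + 2) l * sphVol l * (k + l + 2)) * r +
      (sphVol l * 2 * π * sphVol k) * this + (k + 1) * 2 * π * h - (k + 1) * r2

theorem cliffVol_pos {k l : ℕ} (hk : 1 ≤ k) (hl : 1 ≤ l) : 0 < cliffVol k l := by
  have := sphVol_pos k
  have := sphVol_pos l
  have : (0 : ℝ) < k := by exact_mod_cast hk
  have : (0 : ℝ) < l := by exact_mod_cast hl
  unfold cliffVol
  positivity

theorem aMin_le {m k : ℕ} (hk : 1 ≤ k) (hm : k < m) : aMin m ≤ cliffVol k (m - k) :=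
  csInf_le ((Set.finite_Ico 1 m).image _).bddBelow ⟨k, ⟨hk, hm⟩, rfl⟩

theorem aMin_pos {m : ℕ} (hm : 2 ≤ m) : 0 < aMin m := by
  obtain ⟨k, hk, e⟩ := Set.Nonempty.csInf_mem (s := (fun k => cliffVol k (m - k)) '' Set.Ico 1 m)
    ⟨_, 1, ⟨le_rfl, hm⟩, rfl⟩ ((Set.finite_Ico 1 m).image _)
  rw [aMin, ← e]
  exact cliffVol_pos hk.1 (by have := hk.2; omega)

theorem ball_vol (m : ℕ) : volume (Metric.ball (0 : E (m + 2)) 1) =
    ENNReal.ofReal (sphVol (m + 1) / (m + 2)) := by
  rw [EuclideanSpace.volume_ball, ENNReal.ofReal_one, one_pow, one_mul, Fintype.card_fin, sphVol]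
  congr 1
  have h : (((m + 1 : ℕ) : ℝ) + 1) / 2 = ((m + 2 : ℕ) : ℝ) / 2 := by push_cast; ring
  have := (Gamma_pos_of_pos (show 0 < ((m + 2 : ℕ) : ℝ) / 2 by positivity)).ne'
  rw [h, Gamma_add_one (by positivity), sqrt_eq_rpow, ← rpow_natCast, ← rpow_mul pi_pos.le,
    show 1 / 2 * ((m + 2 : ℕ) : ℝ) = ((m + 2 : ℕ) : ℝ) / 2 by ring]
  field_simp
  push_cast
  ring

end Vale.Agent.P224
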