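import Vale.Agent.P224.Tube

/-! The tubes cover the punctured unit ball; the volume bound. -/

open Matrix Filter Topology MeasureTheory Real Set Manifold
open scoped InnerProductSpace ContDiff ENNReal

namespace Vale.Agent.P224

variable {m : ℕ}

theorem second_order {g : ℝ → ℝ} (h : IsLocalMax g 0) (hc : ContinuousAt g 0) :
    deriv (deriv g) 0 ≤ 0 := by
  by_contra h0
  have h1 := isLocalMin_of_deriv_deriv_pos (not_le.1 h0) h.deriv_eq_zero hc
  have h2 : g =ᶠ[𝓝 0] fun _ => g 0 := (h.and h1).mono fun t ht => le_antisymm ht.1 ht.2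
  rw [h2.deriv.deriv_eq] at h0
  simp at h0

namespace Patch

variable {f : E m → E (m + 2)} {U : Set (E m)} (P : Patch f U) {y : E m} (hy : y ∈ U)
include P hy

theorem max_fst {p : E (m + 2)} (h : IsLocalMax (fun z => ⟪f z, p⟫_ℝ) y) (i : Fin m) :
    ⟪pd f i y, p⟫_ℝ = 0 := by
  have := fderiv_inner_apply ℝ (P.dif hy) (differentiableAt_const p) (EuclideanSpace.single i 1)
  rw [h.fderiv_eq_zero] at this
  simpa [pd] using this.symm

theorem max_snd {p : E (m + 2)} (h : IsLocalMax (fun z => ⟪f z, p⟫_ℝ) y) (v : Fin m → ℝ) :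
    v ⬝ᵥ sff f y p *ᵥ v ≤ 0 := by
  let w : E m := WithLp.toLp 2 v
  have hl : ∀ t : ℝ, HasDerivAt (fun t : ℝ => y + t • w) w t := fun t => by
    simpa using ((hasDerivAt_id t).smul_const w).const_add y
  have e0 : y + (0 : ℝ) • w = y := by simp
  have hc : Tendsto (fun t : ℝ => y + t • w) (𝓝 0) (𝓝 y) := by
    simpa using (hl 0).continuousAt.tendsto
  have h1 : ∀ t : ℝ, y + t • w ∈ U → HasDerivAt (fun t : ℝ => ⟪f (y + t • w), p⟫_ℝ)
      ⟪fderiv ℝ f (y + t • w) w, p⟫_ℝ t := fun t ht => by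
    simpa using ((P.dif ht).hasFDerivAt.comp_hasDerivAt t (hl t)).inner ℝ (hasDerivAt_const t p)
  have h2 : deriv (fun t : ℝ => ⟪f (y + t • w), p⟫_ℝ) =ᶠ[𝓝 0]
      fun t => ⟪fderiv ℝ f (y + t • w) w, p⟫_ℝ :=
    (hc.eventually (P.op.mem_nhds hy)).mono fun t ht => (h1 t ht).deriv
  have h3 := (((P.sm y hy).fderiv_right (m := ∞) le_rfl).differentiableAt (by simp)).hasFDerivAt
  have h4 : HasDerivAt (fun t : ℝ => ⟪fderiv ℝ f (y + t • w) w, p⟫_ℝ)
      ⟪fderiv ℝ (fderiv ℝ f) y w w, p⟫_ℝ 0 := by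
    simpa using ((h3.comp_hasDerivAt_of_eq 0 (hl 0) e0.symm).clm_apply
      (hasDerivAt_const 0 w)).inner ℝ (hasDerivAt_const 0 p)
  have h5 := second_order (g := fun t : ℝ => ⟪f (y + t • w), p⟫_ℝ)
    (by simpa [IsLocalMax, IsMaxFilter] using hc.eventually h)
    (h1 0 (by rwa [e0])).continuousAt
  rw [h2.deriv_eq, h4.deriv, fderiv_sum_pd (fderiv ℝ (fderiv ℝ f) y)] at h5
  refine le_of_eq_of_le ?_ h5
  simp only [dotProduct, mulVec, sff, of_apply, P.pd_pd hy, ContinuousLinearMap.sum_apply,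
    ContinuousLinearMap.smul_apply, sum_inner, inner_smul_left, conj_trivial]
  refine Finset.sum_congr rfl fun i _ => congrArg _ ?_
  rw [fderiv_sum_pd _ w, sum_inner]
  simp [inner_smul_left, mul_comm, w]

theorem cover (hm : 2 ≤ m) {p : E (m + 2)} (h : IsLocalMax (fun z => ⟪f z, p⟫_ℝ) y)
    (h0 : 0 < ‖p‖) (h1 : ‖p‖ < 1) (ht : (shape f y (nrm f y)).trace = 0) {s : Set (E m)}
    (hs : y ∈ s) : p ∈ tube f '' dom f s := by
  have hd := P.decomp hy (P.max_fst hy h)
  set a := ⟪f y, p⟫_ℝ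
  set b := ⟪nrm f y, p⟫_ℝ
  have hn := P.normal hy
  have e1 : sff f y p = b • sff f y (nrm f y) - a • gram f y := by
    rw [sub_eq_add_neg, ← smul_neg, ← P.sff_self hy, hd]
    ext i j
    simp [sff, inner_add_right, inner_smul_right, add_comm]
  have e2 : ∀ v, b * (v ⬝ᵥ sff f y (nrm f y) *ᵥ v) ≤ a * (v ⬝ᵥ gram f y *ᵥ v) := fun v => by
    have := P.max_snd hy h v
    rw [e1, sub_mulVec, smul_mulVec, smul_mulVec, dotProduct_sub, dotProduct_smul,
      dotProduct_smul] at this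
    exact sub_nonpos.1 this
  obtain ⟨κ, k1, -, k3⟩ := diagz (P.gram_pos hy) (P.sff_symm hy (nrm f y))
  have ha : 0 ≤ a := by
    have := Finset.sum_nonneg fun i (_ : i ∈ Finset.univ) => (k3 a b).2 e2 i
    rw [Finset.sum_sub_distrib, ← Finset.sum_mul, ← k1, ← shape, ht] at this
    have hm0 : (0 : ℝ) < m := by exact_mod_cast (by omega : 0 < m)
    simpa [hm0] using this
  have e3 : ‖p‖ ^ 2 = a ^ 2 + b ^ 2 := by
    rw [← real_inner_self_eq_norm_sq]
    nth_rewrite 1 [hd]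
    rw [inner_add_left, inner_smul_left, inner_smul_left]
    simp only [conj_trivial]
    ring
  have e4 : |b / ‖p‖| ≤ 1 := by
    rw [abs_div, abs_norm, div_le_one h0]
    exact abs_le_of_sq_le_sq' (by nlinarith) h0.le |> abs_le.2
  have s1 : sin (arcsin (b / ‖p‖)) = b / ‖p‖ := sin_arcsin (abs_le.1 e4).1 (abs_le.1 e4).2
  have s2 : cos (arcsin (b / ‖p‖)) = a / ‖p‖ := by
    rw [cos_arcsin, sqrt_eq_iff_eq_sq (by nlinarith [sq_abs (b / ‖p‖), abs_nonneg (b / ‖p‖)])
      (by positivity)]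
    field_simp
    linarith
  refine ⟨(y, ‖p‖, arcsin (b / ‖p‖)), ⟨hs, ⟨h0, h1⟩, arcsin_mem_Icc _, fun v => ?_⟩, ?_⟩
  · simp only [s1, s2, div_mul_eq_mul_div]
    exact div_le_div_of_nonneg_right (e2 v) h0.le
  · simp only [tube, s1, s2, mul_div_cancel₀ _ h0.ne']
    exact hd.symm

end Patch

variable {M : Type} [TopologicalSpace M] [ChartedSpace (E m) M] [IsManifold (𝓡 m) ∞ M]
  {F : M → E (m + 2)}

theorem patch_loc (hF : ContMDiff (𝓡 m) (𝓡 (m + 2)) ∞ F) (h1 : ∀ x, ‖F x‖ = 1)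
    (hi : ∀ x, Function.Injective (mfderiv (𝓡 m) (𝓡 (m + 2)) F x)) (x : M) :
    Patch (loc F x) (chartAt (E m) x).target := by
  have hs : ∀ y ∈ (chartAt (E m) x).target, ContMDiffAt (𝓡 m) (𝓡 m) ∞ (chartAt (E m) x).symm y :=
    fun y hy => (contMDiffOn_chart_symm (I := 𝓡 m) y hy).contMDiffAt
      ((chartAt (E m) x).open_target.mem_nhds hy)
  refine ⟨(chartAt (E m) x).open_target, fun y hy =>
    contMDiffAt_iff_contDiffAt.1 ((hF _).comp y (hs y hy)), fun y _ => h1 _, fun y hy => ?_⟩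
  rw [← mfderiv_eq_fderiv, loc, mfderiv_comp (I' := 𝓡 m) y ((hF _).mdifferentiableAt (by simp))
    ((hs y hy).mdifferentiableAt (by simp))]
  exact (hi _).comp ((mdifferentiable_chart (I := 𝓡 m) x).symm.mfderiv_injective hy)

theorem vol_ge [CompactSpace M] [Nonempty M] (hm : 2 ≤ m) (hF : ContMDiff (𝓡 m) (𝓡 (m + 2)) ∞ F)
    (h1 : ∀ x, ‖F x‖ = 1) (hi : ∀ x, Function.Injective (mfderiv (𝓡 m) (𝓡 (m + 2)) F x))
    (h2 : ShapeAll F fun A => A.trace = 0) (h3 : ShapeAll F fun A => (m : ℝ) ≤ (A * A).trace) :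
    ENNReal.ofReal (aMin m) ≤ vol F := by
  classical
  obtain ⟨t, ht⟩ := isCompact_univ.elim_finite_subcover (fun x : M => (chartAt (E m) x).source)
    (fun x => (chartAt (E m) x).open_source) fun x _ => mem_iUnion.2 ⟨x, mem_chart_source _ x⟩
  let x : Fin t.card → M := fun i => t.equivFin.symm i
  let s : Fin t.card → Set (E m) := fun i => (chartAt (E m) (x i)).target \
    ((chartAt (E m) (x i)).target ∩ (chartAt (E m) (x i)).symm ⁻¹'
      ⋃ j < i, (chartAt (E m) (x j)).source)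
  have hs : ∀ i, MeasurableSet (s i) := fun i => (chartAt (E m) (x i)).open_target.measurableSet.diff
    ((chartAt (E m) (x i)).isOpen_inter_preimage_symm
      (isOpen_biUnion fun j _ => (chartAt (E m) (x j)).open_source)).measurableSet
  have hd : ∀ i j, i < j → Disjoint ((chartAt (E m) (x i)).symm '' s i)
      ((chartAt (E m) (x j)).symm '' s j) := by
    intro i j hij
    refine disjoint_left.2 ?_
    rintro _ ⟨y, hy, rfl⟩ ⟨z, hz, e⟩
    exact hz.2 ⟨hz.1, mem_biUnion hij (e ▸ (chartAt (E m) (x i)).map_target hy.1)⟩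
  have P := patch_loc hF h1 hi
  have hc : Metric.ball (0 : E (m + 2)) 1 ⊆
      {0} ∪ ⋃ i, tube (loc F (x i)) '' dom (loc F (x i)) (s i) := by
    intro p hp
    by_cases h0 : p = 0
    · exact Or.inl h0
    obtain ⟨q, -, hq⟩ := isCompact_univ.exists_isMaxOn univ_nonempty
      (f := fun q => ⟪F q, p⟫_ℝ) (hF.continuous.inner continuous_const).continuousOn
    obtain ⟨i, hi1, hi2⟩ := Finset.exists_min_image
      (Finset.univ.filter fun i => q ∈ (chartAt (E m) (x i)).source) id (by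
        obtain ⟨c, hc, h⟩ := mem_iUnion₂.1 (ht (mem_univ q))
        exact ⟨t.equivFin ⟨c, hc⟩, by simpa [x] using h⟩)
    have hq1 := (Finset.mem_filter.1 hi1).2
    have hy := (chartAt (E m) (x i)).map_source hq1
    refine Or.inr (mem_iUnion.2 ⟨i, (P (x i)).cover hy hm (Eventually.of_forall fun z => ?_)
      (norm_pos_iff.2 h0) (by simpa using hp) (h2 _ _ hy _ ((P _).normal hy)) ⟨hy, fun h => ?_⟩⟩)
    · simp only [loc, Function.comp, (chartAt (E m) (x i)).left_inv hq1]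
      exact hq (mem_univ _)
    · obtain ⟨j, hj, h⟩ := mem_iUnion₂.1 h.2
      rw [(chartAt (E m) (x i)).left_inv hq1] at h
      exact (hi2 j (Finset.mem_filter.2 ⟨Finset.mem_univ _, h⟩)).not_gt hj
  have hv := (measure_mono (μ := volume) hc).trans ((measure_union_le _ _).trans (add_le_add le_rfl
    ((measure_iUnion_fintype_le _ _).trans (Finset.sum_le_sum fun i _ =>
      (P (x i)).tube_vol hm (hs i) diff_subset fun y hy =>
        ⟨h2 _ _ hy _ ((P _).normal hy), h3 _ _ hy _ ((P _).normal hy)⟩))))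
  have a0 := aMin_pos hm
  have s0 := sphVol_pos (m + 1)
  rw [measure_singleton, zero_add, ← Finset.mul_sum, ball_vol] at hv
  nth_rewrite 1 [← div_mul_cancel₀ (sphVol (m + 1) / (m + 2)) a0.ne'] at hv
  rw [ENNReal.ofReal_mul (by positivity), ENNReal.mul_le_mul_iff_right
      (ENNReal.ofReal_pos.2 (by positivity)).ne' ENNReal.ofReal_ne_top] at hv
  refine hv.trans (le_iSup_of_le t.card (le_iSup_of_le x (le_iSup_of_le s (le_iSup_of_le
    ⟨fun i => ⟨hs i, diff_subset⟩, fun i j hij => ?_⟩ le_rfl))))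
  exact hij.lt_or_gt.elim (hd i j) fun h => (hd j i h).symm

end Vale.Agent.P224
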