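import Vale.Agent.P224.Opt

/-! Linear algebra: frames, normals, simultaneous diagonalisation. -/

open Matrix
open scoped InnerProductSpace

namespace Vale.Agent.P224

variable {m : ℕ}

abbrev J (m : ℕ) : Type := Fin m ⊕ Unit ⊕ Unit

noncomputable def sg (m : ℕ) : J m ≃ Fin (m + 2) := Fintype.equivFinOfCardEq (by simp)

/-- matrix with the given rows -/
noncomputable def mat (u : J m → E (m + 2)) : Matrix (J m) (J m) ℝ := of fun i j => u i (sg m j)

def frame (w : Fin m → E (m + 2)) (a b : E (m + 2)) : J m → E (m + 2) :=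
  Sum.elim w (Sum.elim (fun _ => a) fun _ => b)

theorem inner_sg (a b : E (m + 2)) : ⟪a, b⟫_ℝ = ∑ j, a (sg m j) * b (sg m j) := by
  rw [PiLp.inner_apply, ← (sg m).sum_comp]
  simp [mul_comm]

theorem det_mat_sq (u : J m → E (m + 2)) : (mat u).det ^ 2 = (Matrix.gram ℝ u).det := by
  have : Matrix.gram ℝ u = mat u * (mat u)ᵀ := by
    ext i j; simp [inner_sg, mat, mul_apply]
  rw [this, det_mul, det_transpose, pow_two]

theorem det_frame {w : Fin m → E (m + 2)} {a b : E (m + 2)} (ha : ∀ i, ⟪w i, a⟫_ℝ = 0)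
    (hb : ∀ i, ⟪w i, b⟫_ℝ = 0) (hab : ⟪a, b⟫_ℝ = 0) :
    (mat (frame w a b)).det ^ 2 = (Matrix.gram ℝ w).det * ‖a‖ ^ 2 * ‖b‖ ^ 2 := by
  have : Matrix.gram ℝ (frame w a b) = fromBlocks (Matrix.gram ℝ w) 0 0
      (fromBlocks (of fun _ _ => ‖a‖ ^ 2) 0 0 (of fun _ _ => ‖b‖ ^ 2)) := by
    have ha' : ∀ i, ⟪a, w i⟫_ℝ = 0 := fun i => (real_inner_comm _ _).trans (ha i)
    have hb' : ∀ i, ⟪b, w i⟫_ℝ = 0 := fun i => (real_inner_comm _ _).trans (hb i)
    have hba : ⟪b, a⟫_ℝ = 0 := (real_inner_comm _ _).trans hab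
    ext (i | i | i) (j | j | j) <;> simp [frame, ha, hb, hab, ha', hb', hba]
  rw [det_mat_sq, this, det_fromBlocks_zero₂₁, det_fromBlocks_zero₂₁, det_unique (n := Unit),
    det_unique (n := Unit), mul_assoc]
  rfl

theorem eq_zero_of_orth {u : J m → E (m + 2)} (h : (mat u).det ≠ 0) {z : E (m + 2)}
    (hz : ∀ i, ⟪u i, z⟫_ℝ = 0) : z = 0 := by
  have := eq_zero_of_mulVec_eq_zero h (v := fun j => z (sg m j))
    (funext fun i => by rw [Pi.zero_apply, ← hz i, inner_sg]; rfl)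
  ext c
  simpa using congrFun this ((sg m).symm c)

theorem exists_normal (w : Fin m → E (m + 2)) (a : E (m + 2)) :
    ∃ ν : E (m + 2), ‖ν‖ = 1 ∧ ⟪a, ν⟫_ℝ = 0 ∧ ∀ i, ⟪w i, ν⟫_ℝ = 0 := by
  obtain ⟨v, hv, h⟩ := (exists_mulVec_eq_zero_iff (M := mat (frame w a 0))).2
    (det_eq_zero_of_row_eq_zero (Sum.inr (Sum.inr ())) fun j => rfl)
  let z : E (m + 2) := WithLp.toLp 2 fun c => v ((sg m).symm c)
  have h1 : ∀ i, ⟪frame w a 0 i, z⟫_ℝ = 0 := fun i => by
    rw [inner_sg, ← Pi.zero_apply (M := fun _ => ℝ) i, ← h]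
    simp [z, mulVec, dotProduct, mat]
  have h2 : z ≠ 0 := fun h0 => hv (funext fun j => by
    simpa [z] using congrArg (fun x : E (m + 2) => x (sg m j)) h0)
  refine ⟨‖z‖⁻¹ • z, norm_smul_inv_norm h2, ?_, fun i => ?_⟩
  · rw [inner_smul_right, show ⟪a, z⟫_ℝ = 0 from h1 (Sum.inr (Sum.inl ())), mul_zero]
  · rw [inner_smul_right, show ⟪w i, z⟫_ℝ = 0 from h1 (Sum.inl i), mul_zero]

/-- generalised cross product -/
noncomputable def cross (w : Fin m → E (m + 2)) (a : E (m + 2)) : E (m + 2) :=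
  WithLp.toLp 2 fun c => (mat (frame w a (EuclideanSpace.single c 1))).det

theorem inner_cross (w : Fin m → E (m + 2)) (a b : E (m + 2)) (i : J m) :
    ⟪frame w a b i, cross w a⟫_ℝ =
      if i = Sum.inr (Sum.inr ()) then (mat (frame w a b)).det else 0 := by
  have h := congrFun (congrFun (mul_adjugate (mat (frame w a b))) i) (Sum.inr (Sum.inr ()))
  rw [Matrix.smul_apply, one_apply, smul_eq_mul, mul_ite, mul_one, mul_zero, mul_apply] at h
  rw [← h, inner_sg]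
  refine Finset.sum_congr rfl fun j _ => ?_
  rw [adjugate_apply]
  congr 1
  simp only [cross]
  congr 1
  ext (r | r | r) c
  · simp [mat, frame]
  · simp [mat, frame]
  · simp [mat, frame, Pi.single_apply]

theorem diag1 {A : Matrix (Fin m) (Fin m) ℝ} (hA : A.IsHermitian) :
    ∃ U : Matrix (Fin m) (Fin m) ℝ, Uᵀ * U = 1 ∧ Uᵀ * A * U = diagonal hA.eigenvalues := by
  refine ⟨hA.eigenvectorUnitary, ?_, ?_⟩
  · simpa [star_eq_conjTranspose] using Unitary.coe_star_mul_self hA.eigenvectorUnitary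
  · simpa [star_eq_conjTranspose] using hA.conjStarAlgAut_star_eigenvectorUnitary

theorem diag2 {G h : Matrix (Fin m) (Fin m) ℝ} (hG : G.PosDef) (hh : hᵀ = h) :
    ∃ (C : Matrix (Fin m) (Fin m) ℝ) (κ : Fin m → ℝ), Cᵀ * G * C = 1 ∧ Cᵀ * h * C = diagonal κ := by
  obtain ⟨U, -, h2⟩ := diag1 hG.1
  let D := diagonal fun i => (√(hG.1.eigenvalues i))⁻¹
  have h3 : (U * D)ᵀ * G * (U * D) = 1 := by
    rw [transpose_mul, diagonal_transpose, show D * Uᵀ * G * (U * D) = D * (Uᵀ * G * U) * D by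
      simp only [Matrix.mul_assoc], h2, diagonal_mul_diagonal, diagonal_mul_diagonal, ← diagonal_one]
    congr 1
    funext i
    have := hG.eigenvalues_pos i
    have := Real.sqrt_pos.2 this
    field_simp
    rw [Real.sq_sqrt (by positivity)]
  obtain ⟨W, h4, h5⟩ := diag1 (A := (U * D)ᵀ * h * (U * D)) (by
    rw [IsHermitian, conjTranspose_eq_transpose_of_trivial]
    simp only [transpose_mul, transpose_transpose, hh, Matrix.mul_assoc])
  refine ⟨U * D * W, _, ?_, Eq.trans ?_ h5⟩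
  · rw [transpose_mul, show Wᵀ * (U * D)ᵀ * G * (U * D * W) = Wᵀ * ((U * D)ᵀ * G * (U * D)) * W by
      simp only [Matrix.mul_assoc], h3, Matrix.mul_one, h4]
  · rw [transpose_mul]; simp only [Matrix.mul_assoc]

theorem diagz {G h : Matrix (Fin m) (Fin m) ℝ} (hG : G.PosDef) (hh : hᵀ = h) :
    ∃ κ : Fin m → ℝ, (G⁻¹ * h).trace = ∑ i, κ i ∧ (G⁻¹ * h * (G⁻¹ * h)).trace = ∑ i, κ i ^ 2 ∧
      ∀ r t : ℝ, (r • (1 : Matrix (Fin m) (Fin m) ℝ) - t • (G⁻¹ * h)).det = ∏ i, (r - κ i * t) ∧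
        ((∀ v, t * (v ⬝ᵥ h *ᵥ v) ≤ r * (v ⬝ᵥ G *ᵥ v)) → ∀ i, 0 ≤ r - κ i * t) := by
  obtain ⟨C, κ, h1, h2⟩ := diag2 hG hh
  have h3 : C * (Cᵀ * G) = 1 := mul_eq_one_comm.1 h1
  have h4 : G⁻¹ = C * Cᵀ := inv_eq_left_inv (by rw [Matrix.mul_assoc, h3])
  have h5 : G⁻¹ * h = C * diagonal κ * (Cᵀ * G) := by
    rw [← h2, h4, show C * (Cᵀ * h * C) * (Cᵀ * G) = C * Cᵀ * h * (C * (Cᵀ * G)) by
      simp only [Matrix.mul_assoc], h3, Matrix.mul_one]
  refine ⟨κ, ?_, ?_, fun r t => ⟨?_, fun hv i => ?_⟩⟩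
  · rw [h5, trace_mul_cycle, h1, Matrix.one_mul, trace_diagonal]
  · rw [h5, show C * diagonal κ * (Cᵀ * G) * (C * diagonal κ * (Cᵀ * G)) =
      C * (diagonal κ * (Cᵀ * G * C) * diagonal κ) * (Cᵀ * G) by simp only [Matrix.mul_assoc],
      trace_mul_cycle, h1, Matrix.one_mul, Matrix.mul_one, diagonal_mul_diagonal, trace_diagonal]
    simp only [pow_two]
  · have : r • (1 : Matrix (Fin m) (Fin m) ℝ) - t • (G⁻¹ * h) =
        C * (diagonal fun i => r - κ i * t) * (Cᵀ * G) := by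
      have e : (diagonal fun i => r - κ i * t) = r • (1 : Matrix (Fin m) (Fin m) ℝ) -
          t • diagonal κ := by
        ext a b; by_cases hab : a = b <;> simp [hab, mul_comm]
      rw [e, h5, Matrix.mul_sub, Matrix.sub_mul, Matrix.mul_smul, Matrix.smul_mul, Matrix.mul_one,
        h3, Matrix.mul_smul, Matrix.smul_mul]
    rw [this, det_mul, det_mul, mul_right_comm, ← det_mul, h3, det_one, one_mul, det_diagonal]
  · have e : ∀ B : Matrix (Fin m) (Fin m) ℝ, Cᵀ i ⬝ᵥ B *ᵥ Cᵀ i = (Cᵀ * B * C) i i := fun B => by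
      rw [dotProduct_mulVec]; rfl
    have := hv (Cᵀ i)
    rw [e, e, h1, h2, diagonal_apply_eq, one_apply_eq] at this
    linarith

end Vale.Agent.P224
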