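import Vale.Agent.P224.Lin

/-! Local geometry of a chart patch: unit normal, Weingarten equation. -/

open Matrix Filter Topology
open scoped InnerProductSpace ContDiff

namespace Vale.Agent.P224

variable {m : ℕ}

structure Patch (f : E m → E (m + 2)) (U : Set (E m)) : Prop where
  op : IsOpen U
  sm : ∀ y ∈ U, ContDiffAt ℝ ∞ f y
  un : ∀ y ∈ U, ‖f y‖ = 1
  inj : ∀ y ∈ U, Function.Injective (fderiv ℝ f y)

theorem inner_const {X V : Type} [NormedAddCommGroup X] [NormedSpace ℝ X] [NormedAddCommGroup V]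
    [InnerProductSpace ℝ V] {u v : X → V} {y : X} {c : ℝ} (hu : DifferentiableAt ℝ u y)
    (hv : DifferentiableAt ℝ v y) (h : ∀ᶠ z in 𝓝 y, ⟪u z, v z⟫_ℝ = c) (w : X) :
    ⟪u y, fderiv ℝ v y w⟫_ℝ + ⟪fderiv ℝ u y w, v y⟫_ℝ = 0 := by
  rw [← fderiv_inner_apply ℝ hu hv, EventuallyEq.fderiv_eq (f := fun _ => c) h]
  simp

theorem contDiffAt_det {X n : Type} [NormedAddCommGroup X] [NormedSpace ℝ X] [Fintype n]
    [DecidableEq n] {A : X → Matrix n n ℝ} {y : X}
    (h : ∀ i j, ContDiffAt ℝ ∞ (fun z => A z i j) y) : ContDiffAt ℝ ∞ (fun z => (A z).det) y := by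
  simp only [det_apply']
  exact ContDiffAt.sum fun σ _ => contDiffAt_const.mul (contDiffAt_prod fun i _ => h _ _)

theorem contDiffAt_pd {f : E m → E (m + 2)} {y : E m} (h : ContDiffAt ℝ ∞ f y) (i : Fin m) :
    ContDiffAt ℝ ∞ (pd f i) y :=
  (h.fderiv_right (m := ∞) le_rfl).clm_apply contDiffAt_const

theorem fderiv_sum_pd {V : Type} [NormedAddCommGroup V] [NormedSpace ℝ V] (T : E m →L[ℝ] V)
    (v : E m) : T v = ∑ i, v i • T (EuclideanSpace.single i 1) := by
  conv_lhs => rw [← (EuclideanSpace.basisFun (Fin m) ℝ).sum_repr v]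
  simp

/-- the unit normal field -/
noncomputable def nrm (f : E m → E (m + 2)) (y : E m) : E (m + 2) :=
  ‖cross (fun i => pd f i y) (f y)‖⁻¹ • cross (fun i => pd f i y) (f y)

namespace Patch

variable {f : E m → E (m + 2)} {U : Set (E m)} (P : Patch f U) {y : E m} (hy : y ∈ U)
include P hy

theorem dif : DifferentiableAt ℝ f y := (P.sm y hy).differentiableAt (by simp)

theorem dif_pd (i : Fin m) : DifferentiableAt ℝ (pd f i) y :=
  (contDiffAt_pd (P.sm y hy) i).differentiableAt (by simp)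

theorem ev {p : E m → Prop} (h : ∀ z ∈ U, p z) : ∀ᶠ z in 𝓝 y, p z :=
  (P.op.eventually_mem hy).mono h

theorem tan_perp (v : E m) : ⟪fderiv ℝ f y v, f y⟫_ℝ = 0 := by
  have := inner_const (P.dif hy) (P.dif hy) (c := 1)
    (P.ev hy fun z hz => by rw [real_inner_self_eq_norm_sq, P.un z hz, one_pow]) v
  rw [real_inner_comm] at this
  linarith

theorem gram_pos : (gram f y).PosDef := by
  refine posDef_gram_of_linearIndependent (v := fun i => pd f i y) ?_
  have e : (fun i => pd f i y) = ⇑(fderiv ℝ f y).toLinearMap ∘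
      ⇑(EuclideanSpace.basisFun (Fin m) ℝ).toBasis := funext fun i => by simp [pd]
  rw [e]
  exact (EuclideanSpace.basisFun (Fin m) ℝ).toBasis.linearIndependent.map'
    (fderiv ℝ f y).toLinearMap (LinearMap.ker_eq_bot.2 (P.inj y hy))

theorem det_sq {ν : E (m + 2)} (h : IsUnitNormal f y ν) :
    (mat (frame (fun i => pd f i y) (f y) ν)).det ^ 2 = (gram f y).det := by
  rw [det_frame (w := fun i => pd f i y) (fun i => P.tan_perp hy _) h.2.2 h.2.1, h.1, P.un y hy]
  simp [gram, Matrix.gram]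

theorem det_ne {ν : E (m + 2)} (h : IsUnitNormal f y ν) :
    (mat (frame (fun i => pd f i y) (f y) ν)).det ≠ 0 := fun h0 => by
  have := P.det_sq hy h
  rw [h0] at this
  linarith [(P.gram_pos hy).det_pos]

theorem cross_ne : cross (fun i => pd f i y) (f y) ≠ 0 := fun h0 => by
  obtain ⟨ν, h⟩ := exists_normal (fun i => pd f i y) (f y)
  have := inner_cross (fun i => pd f i y) (f y) ν (Sum.inr (Sum.inr ()))
  rw [h0, inner_zero_right, if_pos rfl] at this
  exact P.det_ne hy h this.symm

theorem normal : IsUnitNormal f y (nrm f y) := by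
  refine ⟨norm_smul_inv_norm (P.cross_ne hy), ?_, fun i => ?_⟩
  · have := inner_cross (fun i => pd f i y) (f y) 0 (Sum.inr (Sum.inl ()))
    rw [nrm, inner_smul_right, show ⟪f y, _⟫_ℝ = 0 by simpa [frame] using this, mul_zero]
  · have := inner_cross (fun i => pd f i y) (f y) 0 (Sum.inl i)
    rw [nrm, inner_smul_right, show ⟪pd f i y, _⟫_ℝ = 0 by simpa [frame] using this, mul_zero]

theorem sm_nrm : ContDiffAt ℝ ∞ (nrm f) y := by
  have h : ContDiffAt ℝ ∞ (fun z => cross (fun i => pd f i z) (f z)) y := by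
    refine contDiffAt_euclidean.2 fun c => contDiffAt_det fun i j => ?_
    rcases i with i | i | i
    · exact contDiffAt_euclidean.1 (contDiffAt_pd (P.sm y hy) i) _
    · exact contDiffAt_euclidean.1 (P.sm y hy) _
    · exact contDiffAt_const
  exact ((h.norm ℝ (P.cross_ne hy)).inv (norm_ne_zero_iff.2 (P.cross_ne hy))).smul h

theorem dif_nrm : DifferentiableAt ℝ (nrm f) y := (P.sm_nrm hy).differentiableAt (by simp)

theorem pd_pd (j : Fin m) (v : E m) : fderiv ℝ (pd f j) y v =
    fderiv ℝ (fderiv ℝ f) y v (EuclideanSpace.single j 1) := by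
  have h := ((P.sm y hy).fderiv_right (m := ∞) le_rfl).differentiableAt (by simp)
  unfold pd
  rw [fderiv_clm_apply h (differentiableAt_const _)]
  simp

theorem sff_symm (ν : E (m + 2)) : (sff f y ν)ᵀ = sff f y ν := by
  ext i j
  simp only [sff, transpose_apply, of_apply, P.pd_pd hy]
  rw [((P.sm y hy).isSymmSndFDerivAt (by simp; exact WithTop.coe_le_coe.2 le_top)).eq]

theorem sff_self : sff f y (f y) = -gram f y := by
  ext i j
  have := inner_const (P.dif_pd hy j) (P.dif hy) (c := 0) (P.ev hy fun z hz => P.tan_perp hz _)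
    (EuclideanSpace.single i 1)
  simp only [sff, gram, of_apply, Matrix.neg_apply]
  rw [real_inner_comm (pd f j y)]
  exact eq_neg_of_add_eq_zero_right this

theorem dn_f (v : E m) : ⟪f y, fderiv ℝ (nrm f) y v⟫_ℝ = 0 := by
  have := inner_const (P.dif hy) (P.dif_nrm hy) (c := 0)
    (P.ev hy fun z hz => (P.normal hz).2.1) v
  rwa [fderiv_sum_pd (fderiv ℝ f y), sum_inner, Finset.sum_eq_zero fun i _ => by
    rw [inner_smul_left, show ⟪fderiv ℝ f y (EuclideanSpace.single i 1), nrm f y⟫_ℝ = 0 from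
      (P.normal hy).2.2 i, mul_zero],
    add_zero] at this

theorem dn_n (v : E m) : ⟪nrm f y, fderiv ℝ (nrm f) y v⟫_ℝ = 0 := by
  have := inner_const (P.dif_nrm hy) (P.dif_nrm hy) (c := 1)
    (P.ev hy fun z hz => by rw [real_inner_self_eq_norm_sq, (P.normal hz).1, one_pow]) v
  rw [real_inner_comm (nrm f y) (fderiv ℝ _ _ _)] at this
  linarith

theorem weingarten (i : Fin m) :
    pd (nrm f) i y = -∑ k, shape f y (nrm f y) k i • pd f k y := by
  refine eq_neg_of_add_eq_zero_left (eq_zero_of_orth (P.det_ne hy (P.normal hy)) ?_)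
  rintro (j | j | j)
  · have h1 := inner_const (P.dif_pd hy j) (P.dif_nrm hy) (c := 0)
      (P.ev hy fun z hz => (P.normal hz).2.2 j) (EuclideanSpace.single i 1)
    have h2 : gram f y * shape f y (nrm f y) = sff f y (nrm f y) := by
      rw [shape, ← Matrix.mul_assoc, mul_nonsing_inv _ (P.gram_pos hy).det_pos.ne'.isUnit,
        Matrix.one_mul]
    have h3 := congrFun (congrFun (h2.trans (P.sff_symm hy _).symm) j) i
    simp only [mul_apply, gram, sff, of_apply, transpose_apply] at h3
    simp only [frame, Sum.elim_inl, inner_add_right, inner_sum, inner_smul_right]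
    rw [← h1, ← h3]
    simp only [mul_comm, pd]
  · simp only [frame, Sum.elim_inr, Sum.elim_inl, inner_add_right, inner_sum, inner_smul_right]
    rw [pd, P.dn_f hy, zero_add]
    exact Finset.sum_eq_zero fun k _ => by rw [real_inner_comm, pd, P.tan_perp hy, mul_zero]
  · simp only [frame, Sum.elim_inr, inner_add_right, inner_sum, inner_smul_right]
    rw [pd, P.dn_n hy, zero_add]
    exact Finset.sum_eq_zero fun k _ => by rw [real_inner_comm, (P.normal hy).2.2, mul_zero]

theorem decomp {p : E (m + 2)} (hp : ∀ i, ⟪pd f i y, p⟫_ℝ = 0) :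
    p = ⟪f y, p⟫_ℝ • f y + ⟪nrm f y, p⟫_ℝ • nrm f y := by
  refine sub_eq_zero.1 (eq_zero_of_orth (P.det_ne hy (P.normal hy)) ?_)
  have h := P.normal hy
  have h1 : ⟪nrm f y, f y⟫_ℝ = 0 := (real_inner_comm _ _).trans h.2.1
  rintro (j | j | j) <;>
    simp only [frame, Sum.elim_inr, Sum.elim_inl, inner_add_right, inner_sub_right,
      inner_smul_right, real_inner_self_eq_norm_sq, h.1, P.un y hy, h.2.1, h1]
  · rw [hp, h.2.2, pd, P.tan_perp hy]; simp
  · simp
  · simp

end Patch

end Vale.Agent.P224
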