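import Vale.Agent.P224.Beta

/-! The tube function is maximal at the Clifford curvatures. -/

open MeasureTheory Real

namespace Vale.Agent.P224

/-- the tube function -/
noncomputable def Phi {m : ℕ} (κ : Fin m → ℝ) : ℝ :=
  ∫ t in (-(π / 2))..π / 2, ∏ i, max (cos t - κ i * sin t) 0

theorem three_le {c s x y z x' y' z' : ℝ} (h1 : x < y) (h2 : y < z)
    (a1 : x' < z) (a2 : y' < z) (a3 : x < y') (a4 : x < z') (hx : 0 < c - x * s)
    (hz : 0 < c - z * s) : (c - x' * s) * (c - y' * s) * (c - z' * s) ≤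
      max (c - x' * s) 0 * max (c - y' * s) 0 * max (c - z' * s) 0 := by
  rcases le_total 0 s with hs | hs
  · have b1 : 0 ≤ c - x' * s := by nlinarith
    have b2 : 0 ≤ c - y' * s := by nlinarith
    rw [max_eq_left b1, max_eq_left b2]
    exact mul_le_mul_of_nonneg_left (le_max_left _ _) (mul_nonneg b1 b2)
  · have b1 : 0 ≤ c - z' * s := by nlinarith
    have b2 : 0 ≤ c - y' * s := by nlinarith
    rw [max_eq_left b1, max_eq_left b2, mul_assoc, mul_assoc]
    exact mul_le_mul_of_nonneg_right (le_max_left _ _) (mul_nonneg b2 b1)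

theorem exists_triple {x y z w : ℝ} (h1 : x < y) (h2 : y < z) (h3 : x < w) (h4 : w < z) :
    ∃ a b : ℝ, a < z ∧ x < b ∧ a + w + b = x + y + z ∧
      a ^ 2 + w ^ 2 + b ^ 2 = x ^ 2 + y ^ 2 + z ^ 2 ∧
      a * w * b = x * y * z + (w - x) * (w - y) * (w - z) := by
  have hD : 0 ≤ 2 * (x ^ 2 + y ^ 2 + z ^ 2 - w ^ 2) - (x + y + z - w) ^ 2 := by
    have e : (z - x) * (2 * (x ^ 2 + y ^ 2 + z ^ 2 - w ^ 2) - (x + y + z - w) ^ 2) =
        (z - w) * (y - z) ^ 2 + (w - x) * (x - y) ^ 2 + 3 * (z - x) * ((w - x) * (z - w)) := by ring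
    refine le_of_mul_le_mul_left ?_ (sub_pos.2 (h1.trans h2))
    have := sub_pos.2 h3
    have := sub_pos.2 h4
    have := sub_pos.2 (h1.trans h2)
    rw [e, mul_zero]; positivity
  obtain ⟨d, d0, hd⟩ : ∃ d : ℝ, 0 ≤ d ∧ d ^ 2 = _ := ⟨_, sqrt_nonneg _, sq_sqrt hD⟩
  refine ⟨(x + y + z - w - d) / 2, (x + y + z - w + d) / 2, by linarith, by linarith, by ring,
    by linear_combination hd / 2, by linear_combination (-w / 4) * hd⟩

theorem p6_eq {a b c x y z u : ℝ} (h1 : a + b + c = x + y + z)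
    (h2 : a ^ 2 + b ^ 2 + c ^ 2 = x ^ 2 + y ^ 2 + z ^ 2) (h3 : a * b * c = x * y * z + u) :
    a ^ 6 + b ^ 6 + c ^ 6 = x ^ 6 + y ^ 6 + z ^ 6 + (6 * (x + y + z) ^ 3 -
      12 * (x + y + z) * (x * y + y * z + z * x) + 6 * (x * y * z)) * u + 3 * u ^ 2 := by
  have key : ∀ a b c : ℝ, a ^ 6 + b ^ 6 + c ^ 6 = (a + b + c) ^ 6 -
      6 * (a + b + c) ^ 4 * (a * b + b * c + c * a) +
      9 * (a + b + c) ^ 2 * (a * b + b * c + c * a) ^ 2 - 2 * (a * b + b * c + c * a) ^ 3 +
      6 * (a + b + c) ^ 3 * (a * b * c) - 12 * (a + b + c) * (a * b + b * c + c * a) * (a * b * c) +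
      3 * (a * b * c) ^ 2 := fun a b c => by ring
  have h4 : a * b + b * c + c * a = x * y + y * z + z * x := by
    linear_combination ((a + b + c + x + y + z) / 2) * h1 - h2 / 2
  rw [key a b c, key x y z, h1, h4, h3]; ring

theorem cub_eq {a b c x y z u : ℝ} (h1 : a + b + c = x + y + z)
    (h2 : a ^ 2 + b ^ 2 + c ^ 2 = x ^ 2 + y ^ 2 + z ^ 2) (h3 : a * b * c = x * y * z + u)
    (p s : ℝ) : (p - a * s) * (p - b * s) * (p - c * s) =
      (p - x * s) * (p - y * s) * (p - z * s) - u * s ^ 3 := by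
  have h4 : a * b + b * c + c * a = x * y + y * z + z * x := by
    linear_combination ((a + b + c + x + y + z) / 2) * h1 - h2 / 2
  linear_combination (-p ^ 2 * s) * h1 + p * s ^ 2 * h4 - s ^ 3 * h3

theorem mix {x y z : ℝ} (h1 : x < y) (h2 : y < z) : ∃ a w b a' w' b' u v : ℝ, 0 < u ∧ 0 < v ∧
    a + w + b = x + y + z ∧ a ^ 2 + w ^ 2 + b ^ 2 = x ^ 2 + y ^ 2 + z ^ 2 ∧
    a' + w' + b' = x + y + z ∧ a' ^ 2 + w' ^ 2 + b' ^ 2 = x ^ 2 + y ^ 2 + z ^ 2 ∧
    (∀ c s : ℝ, (u + v) * (max (c - x * s) 0 * max (c - y * s) 0 * max (c - z * s) 0) ≤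
      v * (max (c - a * s) 0 * max (c - w * s) 0 * max (c - b * s) 0) +
      u * (max (c - a' * s) 0 * max (c - w' * s) 0 * max (c - b' * s) 0)) ∧
    (u + v) * (x ^ 6 + y ^ 6 + z ^ 6) < v * (a ^ 6 + w ^ 6 + b ^ 6) + u * (a' ^ 6 + w' ^ 6 + b' ^ 6) := by
  obtain ⟨w, w1, w2⟩ := exists_between h1
  obtain ⟨w', w3, w4⟩ := exists_between h2
  obtain ⟨a, b, a1, a2, a3, a4, a5⟩ := exists_triple (w := w) h1 h2 w1 (by linarith)
  obtain ⟨a', b', b1, b2, b3, b4, b5⟩ := exists_triple (w := w') h1 h2 (by linarith) w4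
  obtain ⟨u, hu'⟩ : ∃ u, u = (w - x) * (w - y) * (w - z) := ⟨_, rfl⟩
  obtain ⟨v, hv'⟩ : ∃ v, -v = (w' - x) * (w' - y) * (w' - z) := ⟨_, neg_neg _⟩
  have hu : 0 < u := by
    have : u = (w - x) * (y - w) * (z - w) := by rw [hu']; ring
    rw [this]; exact mul_pos (mul_pos (by linarith) (by linarith)) (by linarith)
  have hv : 0 < v := by
    have : v = (w' - x) * (w' - y) * (z - w') := by linear_combination -hv'
    rw [this]; exact mul_pos (mul_pos (by linarith) (by linarith)) (by linarith)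
  rw [← hu'] at a5
  rw [← hv'] at b5
  refine ⟨a, w, b, a', w', b', u, v, hu, hv, a3, a4, b3, b4, fun c s => ?_, ?_⟩
  · by_cases hx : 0 < c - x * s
    · by_cases hz : 0 < c - z * s
      · have hy : 0 < c - y * s := by
          rcases le_total 0 s with hs | hs <;> nlinarith
        have c1 := three_le h1 h2 a1 (w2.trans h2) w1 a2 hx hz
        have c2 := three_le h1 h2 b1 w4 (h1.trans w3) b2 hx hz
        rw [cub_eq a3 a4 a5] at c1
        rw [cub_eq b3 b4 b5] at c2
        rw [max_eq_left hx.le, max_eq_left hy.le, max_eq_left hz.le]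
        linear_combination v * c1 + u * c2
      · rw [max_eq_right (not_lt.1 hz), mul_zero, mul_zero]; positivity
    · rw [max_eq_right (not_lt.1 hx), zero_mul, zero_mul, mul_zero]; positivity
  · rw [p6_eq a3 a4 a5, p6_eq b3 b4 b5]
    have : 0 < v * u ^ 2 + u * v ^ 2 := by positivity
    linear_combination 3 * this

variable {m : ℕ}

theorem cont_int (κ : Fin m → ℝ) : Continuous fun t => ∏ i, max (cos t - κ i * sin t) 0 := by
  fun_prop

theorem cont_Phi : Continuous (Phi : (Fin m → ℝ) → ℝ) :=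
  intervalIntegral.continuous_parametric_intervalIntegral_of_continuous' (by fun_prop) _ _

/-- replace three coordinates -/
def upd (κ : Fin m → ℝ) (i j l : Fin m) (a b c : ℝ) : Fin m → ℝ :=
  fun n => if n = i then a else if n = j then b else if n = l then c else κ n

theorem prod_upd {A : Type} [CommMonoid A] (g : ℝ → A) (κ : Fin m → ℝ) {i j l : Fin m}
    (hij : i ≠ j) (hil : i ≠ l) (hjl : j ≠ l) (a b c : ℝ) :
    ∏ n, g (upd κ i j l a b c n) =
      g a * g b * g c * ∏ n ∈ ((Finset.univ.erase i).erase j).erase l, g (κ n) := by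
  rw [← Finset.mul_prod_erase _ _ (Finset.mem_univ i), ← Finset.mul_prod_erase _ _
    (Finset.mem_erase.2 ⟨hij.symm, Finset.mem_univ j⟩), ← Finset.mul_prod_erase _ _
    (Finset.mem_erase.2 ⟨hjl.symm, Finset.mem_erase.2 ⟨hil.symm, Finset.mem_univ l⟩⟩),
    Finset.prod_congr rfl (g := fun n => g (κ n)) fun n hn => ?_]
  · simp [upd, hij.symm, hil.symm, hjl.symm, mul_assoc]
  · simp only [Finset.mem_erase] at hn
    simp [upd, hn.1, hn.2.1, hn.2.2.1]

theorem sum_upd (g : ℝ → ℝ) (κ : Fin m → ℝ) {i j l : Fin m}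
    (hij : i ≠ j) (hil : i ≠ l) (hjl : j ≠ l) (a b c : ℝ) :
    ∑ n, g (upd κ i j l a b c n) =
      g a + g b + g c + ∑ n ∈ ((Finset.univ.erase i).erase j).erase l, g (κ n) :=
  prod_upd (A := Multiplicative ℝ) g κ hij hil hjl a b c

theorem upd_self (κ : Fin m → ℝ) (i j l : Fin m) : upd κ i j l (κ i) (κ j) (κ l) = κ := by
  funext n
  simp only [upd]
  split_ifs <;> simp [*]

/-- three distinct values can be improved -/
theorem improve {κ : Fin m → ℝ} {i j l : Fin m} (h1 : κ i < κ j) (h2 : κ j < κ l) {ε : ℝ}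
    (hε : 0 < ε) : ∃ κ' : Fin m → ℝ, ∑ n, κ' n = ∑ n, κ n ∧ ∑ n, κ' n ^ 2 = ∑ n, κ n ^ 2 ∧
      Phi κ + ε * ∑ n, κ n ^ 6 < Phi κ' + ε * ∑ n, κ' n ^ 6 := by
  have hij : i ≠ j := fun h => by simp [h] at h1
  have hjl : j ≠ l := fun h => by simp [h] at h2
  have hil : i ≠ l := fun h => by subst h; linarith
  obtain ⟨a, w, b, a', w', b', u, v, hu, hv, a3, a4, b3, b4, hp, h6⟩ := mix h1 h2
  have s0 := fun g => sum_upd g κ hij hil hjl (κ i) (κ j) (κ l)
  simp only [upd_self] at s0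
  have hP : (u + v) * Phi κ ≤ v * Phi (upd κ i j l a w b) + u * Phi (upd κ i j l a' w' b') := by
    simp only [Phi, ← intervalIntegral.integral_const_mul]
    rw [← intervalIntegral.integral_add (((cont_int _).const_mul _).intervalIntegrable _ _)
      (((cont_int _).const_mul _).intervalIntegrable _ _)]
    refine intervalIntegral.integral_mono_on (by linarith [pi_pos])
      (((cont_int _).const_mul _).intervalIntegrable _ _) ((((cont_int _).const_mul _).add
        ((cont_int _).const_mul _)).intervalIntegrable _ _) fun t _ => ?_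
    have p0 := prod_upd (fun r => max (cos t - r * sin t) 0) κ hij hil hjl (κ i) (κ j) (κ l)
    simp only [upd_self] at p0
    rw [p0, prod_upd (fun r => max (cos t - r * sin t) 0) κ hij hil hjl,
      prod_upd (fun r => max (cos t - r * sin t) 0) κ hij hil hjl, ← mul_assoc (u + v),
      ← mul_assoc v, ← mul_assoc u, ← add_mul _ _ (∏ n ∈ _, _)]
    exact mul_le_mul_of_nonneg_right (hp _ _) (Finset.prod_nonneg fun n _ => le_max_right _ _)
  by_contra hcon
  push Not at hcon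
  have c1 := hcon (upd κ i j l a w b)
    (by rw [sum_upd (fun r => r) κ hij hil hjl, s0 fun r => r, a3])
    (by rw [sum_upd (fun r => r ^ 2) κ hij hil hjl, s0 fun r => r ^ 2, a4])
  have c2 := hcon (upd κ i j l a' w' b')
    (by rw [sum_upd (fun r => r) κ hij hil hjl, s0 fun r => r, b3])
    (by rw [sum_upd (fun r => r ^ 2) κ hij hil hjl, s0 fun r => r ^ 2, b4])
  rw [sum_upd (fun r => r ^ 6) κ hij hil hjl, s0 fun r => r ^ 6] at c1 c2
  have c3 := mul_le_mul_of_nonneg_left c1 hv.le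
  have c4 := mul_le_mul_of_nonneg_left c2 hu.le
  have c5 := mul_lt_mul_of_pos_left h6 hε
  linarith

theorem int_cliff {α : ℝ} (h0 : 0 < α) (h1 : α < π / 2) {k l : ℕ} (hk : k ≠ 0) (hl : l ≠ 0) :
    ∫ t in (-(π / 2))..π / 2, max (cos (t + α)) 0 ^ k * max (sin (t + α)) 0 ^ l = II k l := by
  have hc : ∀ a b, IntervalIntegrable (fun t => max (cos t) 0 ^ k * max (sin t) 0 ^ l) volume a b :=
    fun a b => Continuous.intervalIntegrable (by fun_prop) _ _
  rw [intervalIntegral.integral_comp_add_right (fun t => max (cos t) 0 ^ k * max (sin t) 0 ^ l),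
    ← intervalIntegral.integral_add_adjacent_intervals (hc _ 0) (hc _ _),
    ← intervalIntegral.integral_add_adjacent_intervals (hc 0 (π / 2)) (hc _ _),
    intervalIntegral.integral_congr (a := -(π / 2) + α) (g := fun _ => 0) fun t ht => ?_,
    intervalIntegral.integral_congr (a := π / 2) (g := fun _ => 0) fun t ht => ?_, II]
  · simp only [intervalIntegral.integral_zero, zero_add, add_zero]
    refine intervalIntegral.integral_congr fun t ht => ?_
    rw [Set.uIcc_of_le (by linarith)] at ht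
    simp only [max_eq_left (cos_nonneg_of_mem_Icc ⟨by linarith [ht.1], ht.2⟩),
      max_eq_left (sin_nonneg_of_nonneg_of_le_pi ht.1 (by linarith [ht.2]))]
  · rw [Set.uIcc_of_le (by linarith)] at ht
    simp [max_eq_right (cos_nonpos_of_pi_div_two_le_of_le ht.1 (by linarith [ht.2])), hk]
  · rw [Set.uIcc_of_le (by linarith)] at ht
    simp [max_eq_right (sin_nonpos_of_nonpos_of_neg_pi_le ht.2 (by linarith [ht.1])), hl]

theorem two_val (hm : 2 ≤ m) {κ : Fin m → ℝ} (h1 : ∑ n, κ n = 0) (h2 : ∑ n, κ n ^ 2 = m)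
    (h3 : ∀ i j l, κ i < κ j → ¬ κ j < κ l) : Phi κ * aMin m ≤ sphVol (m + 1) := by
  have hm0 : (0 : ℝ) < m := by exact_mod_cast (by omega : 0 < m)
  have hz : ¬ ∀ n, κ n = 0 := fun h => by simp [h] at h2; linarith
  obtain ⟨i, hi⟩ : ∃ i, 0 < κ i := by
    by_contra h
    push Not at h
    exact hz fun n => (Finset.sum_eq_zero_iff_of_nonpos fun n _ => h n).1 h1 n (Finset.mem_univ _)
  obtain ⟨j, hj⟩ : ∃ i, κ i < 0 := by
    by_contra h
    push Not at h
    exact hz fun n => (Finset.sum_eq_zero_iff_of_nonneg fun n _ => h n).1 h1 n (Finset.mem_univ _)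
  have h4 : ∀ n, ¬ κ n = κ i → κ n = κ j := by
    intro n hn
    rcases lt_trichotomy (κ n) (κ j) with h | h | h
    · exact absurd (hj.trans hi) (h3 _ _ _ h)
    · exact h
    · rcases lt_or_gt_of_ne hn with h' | h'
      · exact absurd h' (h3 _ _ _ h)
      · exact absurd h' (h3 _ _ _ (hj.trans hi))
  obtain ⟨k, hk⟩ : ∃ k, k = (Finset.univ.filter fun n => κ n = κ i).card := ⟨_, rfl⟩
  obtain ⟨l, hl⟩ : ∃ l, l = (Finset.univ.filter fun n => ¬ κ n = κ i).card := ⟨_, rfl⟩
  have hkl : k + l = m := by rw [hk, hl, Finset.card_filter_add_card_filter_not]; simp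
  have k0 : k ≠ 0 := by rw [hk]; exact Finset.card_ne_zero.2 ⟨i, by simp⟩
  have l0 : l ≠ 0 := by
    rw [hl]; exact Finset.card_ne_zero.2 ⟨j, by simpa using (hj.trans hi).ne⟩
  have hp : ∀ {A : Type} [CommMonoid A] (g : ℝ → A), ∏ n, g (κ n) = g (κ i) ^ k * g (κ j) ^ l := by
    intro A _ g
    rw [← Finset.prod_filter_mul_prod_filter_not _ fun n => κ n = κ i,
      Finset.prod_congr rfl (g := fun _ => g (κ i)) fun n hn => by rw [(Finset.mem_filter.1 hn).2],
      Finset.prod_congr (s₁ := Finset.univ.filter fun n => ¬ κ n = κ i) rfl (g := fun _ => g (κ j))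
        fun n hn => by rw [h4 n (Finset.mem_filter.1 hn).2],
      Finset.prod_const, Finset.prod_const, hk, hl]
  have hs : ∀ g : ℝ → ℝ, ∑ n, g (κ n) = k * g (κ i) + l * g (κ j) := fun g => by
    have := hp (A := Multiplicative ℝ) g
    simp only [← nsmul_eq_mul]
    exact this
  rw [hs fun r => r] at h1
  rw [hs fun r => r ^ 2, ← hkl] at h2
  generalize κ i = a at *
  generalize κ j = b at *
  have kp : (0 : ℝ) < k := by positivity
  have lp : (0 : ℝ) < l := by positivity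
  push_cast at h2
  have hab : a * b = -1 := by
    refine mul_left_cancel₀ (show (k : ℝ) * (a - b) ≠ 0 from (mul_pos kp (by linarith)).ne') ?_
    linear_combination b * h2 - (b ^ 2 - 1) * h1
  have ha2 : k * a ^ 2 = l := by linear_combination a * h1 - l * hab
  obtain ⟨α, α0, α1, hα⟩ : ∃ α, 0 < α ∧ α < π / 2 ∧ sin α = a * cos α :=
    ⟨arctan a, arctan_pos.2 hi, arctan_lt_pi_div_two a, by
      rw [← tan_mul_cos (cos_arctan_pos a).ne', tan_arctan]⟩
  have cp : 0 < cos α := cos_pos_of_mem_Ioo ⟨by linarith, α1⟩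
  have sp : 0 < sin α := by rw [hα]; positivity
  have c2 : (k : ℝ) / (k + l) = cos α ^ 2 := by
    have := sin_sq_add_cos_sq α
    rw [hα] at this
    field_simp
    linear_combination -k * this + cos α ^ 2 * ha2
  have s2 : (l : ℝ) / (k + l) = sin α ^ 2 := by
    rw [sin_sq, ← c2]; field_simp; ring
  have e : ∀ (r : ℝ) (n : ℕ), 0 < r → (r ^ 2) ^ ((n : ℝ) / 2) = r ^ n := fun r n hr => by
    rw [← rpow_natCast, ← rpow_mul hr.le, ← rpow_natCast]; congr 1; push_cast; ring
  have h5 : Phi κ * (cos α ^ k * sin α ^ l) = II k l := by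
    rw [← int_cliff α0 α1 k0 l0, Phi, ← intervalIntegral.integral_mul_const]
    refine intervalIntegral.integral_congr fun t _ => ?_
    simp only [hp fun r => max (cos t - r * sin t) 0]
    rw [mul_mul_mul_comm, ← mul_pow, ← mul_pow, max_mul_of_nonneg _ _ cp.le,
      max_mul_of_nonneg _ _ sp.le, zero_mul, zero_mul, cos_add, sin_add]
    congr 3
    · rw [hα]; ring
    · rw [hα]; linear_combination (-sin t * cos α) * hab
  have h6 : 0 ≤ Phi κ := intervalIntegral.integral_nonneg (by linarith [pi_pos])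
    fun t _ => Finset.prod_nonneg fun n _ => le_max_right _ _
  refine (mul_le_mul_of_nonneg_left (aMin_le (k := k) (by omega) (by omega)) h6).trans_eq ?_
  rw [show m - k = l by omega, show m + 1 = k + l + 1 by omega, ← II_sph, ← h5,
    cliffVol, c2, s2, e _ _ cp, e _ _ sp]
  ring

theorem opt_eq (hm : 2 ≤ m) {κ : Fin m → ℝ} (h1 : ∑ n, κ n = 0) (h2 : ∑ n, κ n ^ 2 = m) :
    Phi κ * aMin m ≤ sphVol (m + 1) := by
  let K : Set (Fin m → ℝ) := {κ | ∑ n, κ n = 0 ∧ ∑ n, κ n ^ 2 = m}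
  have hb : ∀ κ ∈ K, ∀ n, κ n ^ 2 ≤ m := fun κ h n => h.2 ▸
    Finset.single_le_sum (f := fun n => κ n ^ 2) (fun n _ => sq_nonneg _) (Finset.mem_univ n)
  have hK : IsCompact K := by
    refine Metric.isCompact_of_isClosed_isBounded ((isClosed_eq (by fun_prop) (by fun_prop)).inter
      (isClosed_eq (by fun_prop) (by fun_prop))) ((Metric.isBounded_closedBall (x := 0)
        (r := √m)).subset fun κ h => ?_)
    rw [mem_closedBall_zero_iff, pi_norm_le_iff_of_nonneg (sqrt_nonneg _)]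
    exact fun n => abs_le_sqrt (hb κ h n)
  have ha := aMin_pos hm
  refine le_of_forall_pos_le_add fun ε hε => ?_
  have hm0 : (0 : ℝ) < m := by exact_mod_cast (by omega : 0 < m)
  obtain ⟨δ, hδ, e⟩ : ∃ δ : ℝ, 0 < δ ∧ δ * (m * m ^ 3) * aMin m = ε :=
    ⟨ε / (m * m ^ 3 * aMin m), by positivity, by field_simp⟩
  obtain ⟨κ', h3, h4⟩ := hK.exists_isMaxOn ⟨κ, h1, h2⟩ (f := fun κ => Phi κ + δ * ∑ n, κ n ^ 6)
    (cont_Phi.add (by fun_prop)).continuousOn
  have h5 := two_val hm h3.1 h3.2 fun i j l a1 a2 => by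
    obtain ⟨κ'', b1, b2, b3⟩ := improve a1 a2 hδ
    exact absurd (h4 ⟨b1.trans h3.1, b2.trans h3.2⟩) (not_le.2 b3)
  have h6 : Phi κ + δ * ∑ n, κ n ^ 6 ≤ Phi κ' + δ * ∑ n, κ' n ^ 6 := h4 ⟨h1, h2⟩
  have h7 : ∑ n, κ' n ^ 6 ≤ m * m ^ 3 := by
    refine (Finset.sum_le_card_nsmul _ _ ((m : ℝ) ^ 3) fun n _ => ?_).trans (by simp)
    rw [show κ' n ^ 6 = (κ' n ^ 2) ^ 3 by ring]
    exact pow_le_pow_left₀ (sq_nonneg _) (hb _ h3 n) 3
  have h8 : 0 ≤ δ * ∑ n, κ n ^ 6 := by positivity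
  have h9 := mul_le_mul_of_nonneg_left h7 hδ.le
  nlinarith

theorem prod_scale {κ : Fin m → ℝ} (h1 : ∑ n, κ n = 0) {μ c s : ℝ} (h0 : 0 ≤ μ) (hμ : μ ≤ 1)
    (hc : 0 ≤ c) : ∏ i, max (c - κ i * s) 0 ≤ ∏ i, max (c - μ * κ i * s) 0 := by
  by_cases h : ∃ i, c - κ i * s ≤ 0
  · obtain ⟨i, hi⟩ := h
    rw [Finset.prod_eq_zero (Finset.mem_univ i) (max_eq_right hi)]
    exact Finset.prod_nonneg fun n _ => le_max_right _ _
  push Not at h
  rcases hc.eq_or_lt with rfl | hc
  · rcases isEmpty_or_nonempty (Fin m) with _ | hne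
    · simp
    · have := Finset.sum_pos (fun i _ => h i) Finset.univ_nonempty
      simp [← Finset.sum_mul, h1] at this
  have h2 : ∀ i, 0 < c - μ * κ i * s := fun i => by
    rcases h0.eq_or_lt with rfl | h0
    · simpa using hc
    · nlinarith [mul_pos h0 (h i), mul_nonneg (sub_nonneg.2 hμ) hc.le]
  simp only [fun i => max_eq_left (h i).le, fun i => max_eq_left (h2 i).le]
  rw [← log_le_log_iff (Finset.prod_pos fun i _ => h i) (Finset.prod_pos fun i _ => h2 i),
    log_prod fun i _ => (h i).ne', log_prod fun i _ => (h2 i).ne']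
  have h3 : ∀ i, log (c - κ i * s) + (1 - μ) / c * s * κ i ≤ log (c - μ * κ i * s) := fun i => by
    have a1 := strictConcaveOn_log_Ioi.concaveOn.2 (h i) hc h0 (sub_nonneg.2 hμ) (by ring)
    have a2 := log_le_sub_one_of_pos (div_pos (h i) hc)
    rw [log_div (h i).ne' hc.ne', sub_div, div_self hc.ne'] at a2
    simp only [smul_eq_mul] at a1
    rw [show μ * (c - κ i * s) + (1 - μ) * c = c - μ * κ i * s by ring] at a1
    have a3 := mul_le_mul_of_nonneg_left a2 (sub_nonneg.2 hμ)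
    have : (1 - μ) / c * s * κ i = (1 - μ) * (κ i * s / c) := by ring
    linarith
  refine le_trans (le_of_eq ?_) (Finset.sum_le_sum fun i _ => h3 i)
  rw [Finset.sum_add_distrib, ← Finset.mul_sum, h1, mul_zero, add_zero]

theorem opt (hm : 2 ≤ m) {κ : Fin m → ℝ} (h1 : ∑ n, κ n = 0) (h2 : (m : ℝ) ≤ ∑ n, κ n ^ 2) :
    Phi κ * aMin m ≤ sphVol (m + 1) := by
  have hm0 : (0 : ℝ) < m := by exact_mod_cast (by omega : 0 < m)
  have hS := hm0.trans_le h2
  have h3 := opt_eq hm (κ := fun n => √(m / ∑ n, κ n ^ 2) * κ n)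
    (by rw [← Finset.mul_sum, h1, mul_zero])
    (by simp only [mul_pow, ← Finset.mul_sum]; rw [sq_sqrt (by positivity)]; field_simp)
  refine le_trans (mul_le_mul_of_nonneg_right ?_ (aMin_pos hm).le) h3
  refine intervalIntegral.integral_mono_on (by linarith [pi_pos])
    ((cont_int _).intervalIntegrable _ _) ((cont_int _).intervalIntegrable _ _) fun t ht => ?_
  exact prod_scale h1 (sqrt_nonneg _) (sqrt_le_one.2 ((div_le_one hS).2 h2))
    (cos_nonneg_of_mem_Icc ht)

end Vale.Agent.P224
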