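import Vale.Agent.P224.Loc

/-! The normal tube map of a patch and the volume of its image. -/

open Matrix Filter Topology MeasureTheory Module Real Set
open scoped InnerProductSpace ContDiff ENNReal

namespace Vale.Agent.P224

variable {m : ℕ}

abbrev X (m : ℕ) : Type := E m × ℝ × ℝ

noncomputable def bX (m : ℕ) : Basis (J m) ℝ (X m) :=
  (EuclideanSpace.basisFun (Fin m) ℝ).toBasis.prod
    ((Basis.singleton Unit ℝ).prod (Basis.singleton Unit ℝ))

noncomputable def bE (m : ℕ) : Basis (J m) ℝ (E (m + 2)) :=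
  (EuclideanSpace.basisFun (Fin (m + 2)) ℝ).toBasis.reindex (sg m).symm

noncomputable def LX (m : ℕ) : X m ≃L[ℝ] E (m + 2) :=
  ((bX m).equiv (bE m) (Equiv.refl _)).toContinuousLinearEquiv

theorem bX_haar : (bX m).addHaar = volume := by
  rw [bX, Basis.prod_addHaar, Basis.prod_addHaar, OrthonormalBasis.addHaar_eq_volume,
    ← OrthonormalBasis.toBasis_singleton, OrthonormalBasis.addHaar_eq_volume]
  rfl

theorem LX_mp : MeasurePreserving (LX m) := by
  refine ⟨(LX m).continuous.measurable, ?_⟩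
  have h2 : (bX m).map (LX m).toLinearEquiv = bE m := by
    ext j : 1
    simp [LX]
  rw [← bX_haar, Basis.map_addHaar, h2, bE, Basis.addHaar_reindex,
    OrthonormalBasis.addHaar_eq_volume]

theorem det_LX (T : X m →L[ℝ] E (m + 2)) :
    (((LX m).symm : E (m + 2) →L[ℝ] X m).comp T).det = (mat fun j => T (bX m j)).det := by
  rw [ContinuousLinearMap.det, ← LinearMap.det_toMatrix (bX m), ← det_transpose]
  congr 1
  ext i j
  have : ∀ z, (bX m).repr ((LX m).symm z) = (bE m).repr z := fun z => by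
    simp [LX, Basis.equiv]
  simp [LinearMap.toMatrix_apply, mat, this, bE]

theorem area {s : Set (X m)} (hs : MeasurableSet s) {Ψ : X m → E (m + 2)}
    (h : ∀ x ∈ s, DifferentiableAt ℝ Ψ x) :
    volume (Ψ '' s) ≤ ∫⁻ x in s, ENNReal.ofReal |(mat fun j => fderiv ℝ Ψ x (bX m j)).det| := by
  have i : (volume : Measure (X m)).IsAddHaarMeasure := by rw [← bX_haar]; infer_instance
  have := addHaar_image_le_lintegral_abs_det_fderiv volume hs (f := (LX m).symm ∘ Ψ) fun x hx =>
    (((LX m).symm.hasFDerivAt).comp x (h x hx).hasFDerivAt).hasFDerivWithinAt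
  simp only [det_LX] at this
  rwa [image_comp, ContinuousLinearEquiv.image_symm_eq_preimage,
    LX_mp.measure_preimage_emb (LX m).toHomeomorph.measurableEmbedding] at this

noncomputable def tube (f : E m → E (m + 2)) (x : X m) : E (m + 2) :=
  (x.2.1 * cos x.2.2) • f x.1 + (x.2.1 * sin x.2.2) • nrm f x.1

def dom (f : E m → E (m + 2)) (s : Set (E m)) : Set (X m) :=
  {x | x.1 ∈ s ∧ x.2.1 ∈ Ioo (0 : ℝ) 1 ∧ x.2.2 ∈ Icc (-(π / 2)) (π / 2) ∧
    ∀ v, sin x.2.2 * (v ⬝ᵥ sff f x.1 (nrm f x.1) *ᵥ v) ≤ cos x.2.2 * (v ⬝ᵥ gram f x.1 *ᵥ v)}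

namespace Patch

variable {f : E m → E (m + 2)} {U : Set (E m)} (P : Patch f U)
include P

theorem dom_meas {s : Set (E m)} (hs : MeasurableSet s) (hU : s ⊆ U) :
    MeasurableSet (dom f s) := by
  have h : IsOpen {x : X m | x.1 ∈ U ∧ ∃ v, cos x.2.2 * (v ⬝ᵥ gram f x.1 *ᵥ v) <
      sin x.2.2 * (v ⬝ᵥ sff f x.1 (nrm f x.1) *ᵥ v)} := by
    refine isOpen_iff_mem_nhds.2 fun x ⟨hx, v, hv⟩ => ?_
    have c1 : ∀ i, ContinuousAt (fun z : X m => pd f i z.1) x := fun i =>
      (P.dif_pd hx i).continuousAt.comp continuousAt_fst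
    have c2 : ∀ i j, ContinuousAt (fun z : X m => pd (pd f j) i z.1) x := fun i j =>
      (contDiffAt_pd (contDiffAt_pd (P.sm _ hx) j) i).continuousAt.comp continuousAt_fst
    have c3 : ContinuousAt (fun z : X m => nrm f z.1) x :=
      (P.dif_nrm hx).continuousAt.comp continuousAt_fst
    refine ((continuousAt_fst.eventually (P.op.mem_nhds hx)).and
      (ContinuousAt.eventually_lt ?_ ?_ hv)).mono fun z hz => ⟨hz.1, v, hz.2⟩
    all_goals
      simp only [dotProduct, mulVec]
      refine ContinuousAt.mul (by fun_prop) (tendsto_finsetSum _ fun i _ =>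
        Tendsto.const_mul _ (tendsto_finsetSum _ fun j _ => Tendsto.mul_const _ ?_))
    · exact (c1 i).inner (c1 j)
    · exact (c2 i j).inner c3
  have e : dom f s = (s ×ˢ Ioo (0 : ℝ) 1 ×ˢ Icc (-(π / 2)) (π / 2)) \ {x : X m | x.1 ∈ U ∧ ∃ v,
      cos x.2.2 * (v ⬝ᵥ gram f x.1 *ᵥ v) < sin x.2.2 * (v ⬝ᵥ sff f x.1 (nrm f x.1) *ᵥ v)} := by
    ext x
    simp only [dom, mem_diff, mem_setOf_eq, mem_prod, not_and, not_exists, not_lt]
    exact ⟨fun h => ⟨⟨h.1, h.2.1, h.2.2.1⟩, fun _ => h.2.2.2⟩,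
      fun h => ⟨h.1.1, h.1.2.1, h.1.2.2, h.2 (hU h.1.1)⟩⟩
  rw [e]
  exact (hs.prod (measurableSet_Ioo.prod measurableSet_Icc)).diff h.measurableSet

theorem tube_jac {x : X m} (hx : x.1 ∈ U) : DifferentiableAt ℝ (tube f) x ∧
    (mat fun j => fderiv ℝ (tube f) x (bX m j)).det ^ 2 = (gram f x.1).det * x.2.1 ^ 2 *
      ((x.2.1 * cos x.2.2) • (1 : Matrix (Fin m) (Fin m) ℝ) -
        (x.2.1 * sin x.2.2) • shape f x.1 (nrm f x.1)).det ^ 2 := by
  obtain ⟨y, ρ, θ⟩ := x
  have h0 : HasFDerivAt (fun x : X m => x.2) (ContinuousLinearMap.snd ℝ _ _) (y, ρ, θ) :=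
    hasFDerivAt_snd
  have h1 := h0.fst
  have h2 := h0.snd
  have h3 := ((h1.mul h2.cos).smul ((P.dif hx).hasFDerivAt.comp (y, ρ, θ) hasFDerivAt_fst)).add
    ((h1.mul h2.sin).smul ((P.dif_nrm hx).hasFDerivAt.comp (y, ρ, θ) hasFDerivAt_fst))
  have h4 : HasFDerivAt (tube f) _ (y, ρ, θ) := h3
  refine ⟨h4.differentiableAt, ?_⟩
  set C := (ρ * cos θ) • (1 : Matrix (Fin m) (Fin m) ℝ) - (ρ * sin θ) • shape f y (nrm f y)
    with hC
  have e : (fun j => fderiv ℝ (tube f) (y, ρ, θ) (bX m j)) =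
      frame (fun i => ∑ k, C k i • pd f k y) (cos θ • f y + sin θ • nrm f y)
        ((-(ρ * sin θ)) • f y + (ρ * cos θ) • nrm f y) := by
    funext j
    rw [h4.fderiv]
    rcases j with j | j | j
    · have := P.weingarten hx j
      simp only [pd] at this
      simp [bX, frame, hC, this, pd, one_apply, ite_smul, mul_smul, Finset.smul_sum,
        sub_eq_add_neg, add_smul, Finset.sum_add_distrib]
    · simp [bX, frame]
    · simp [bX, frame]
  have hn := P.normal hx
  have n1 : ⟪nrm f y, f y⟫_ℝ = 0 := (real_inner_comm _ _).trans hn.2.1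
  have t : ∀ a b : ℝ, ∀ i, ⟪∑ k, C k i • pd f k y, a • f y + b • nrm f y⟫_ℝ = 0 := fun a b i => by
    rw [sum_inner]
    refine Finset.sum_eq_zero fun k _ => ?_
    rw [inner_smul_left, inner_add_right, inner_smul_right, inner_smul_right, hn.2.2, pd,
      P.tan_perp hx]
    simp
  have q : ∀ a b c d : ℝ, ⟪a • f y + b • nrm f y, c • f y + d • nrm f y⟫_ℝ = a * c + b * d := by
    intro a b c d
    simp only [inner_add_left, inner_add_right, inner_smul_left, inner_smul_right, hn.2.1, n1,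
      real_inner_self_eq_norm_sq, hn.1, P.un y hx, conj_trivial]
    ring
  have g : Matrix.gram ℝ (fun i => ∑ k, C k i • pd f k y) = Cᵀ * gram f y * C := by
    ext i j
    simp only [Matrix.gram, gram, of_apply, mul_apply, transpose_apply, sum_inner, inner_sum,
      inner_smul_left, inner_smul_right, conj_trivial, Finset.sum_mul, Finset.mul_sum]
    exact Finset.sum_congr rfl fun _ _ => Finset.sum_congr rfl fun _ _ => by ring
  rw [e, det_frame (t _ _) (t _ _) (by rw [q]; ring), g, det_mul, det_mul, det_transpose,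
    ← real_inner_self_eq_norm_sq, ← real_inner_self_eq_norm_sq, q, q]
  have := sin_sq_add_cos_sq θ
  show _ = (gram f y).det * ρ ^ 2 * C.det ^ 2
  rw [show cos θ * cos θ + sin θ * sin θ = 1 by linarith,
    show -(ρ * sin θ) * -(ρ * sin θ) + ρ * cos θ * (ρ * cos θ) = ρ ^ 2 by
      linear_combination ρ ^ 2 * this]
  ring

theorem tube_vol (hm : 2 ≤ m) {s : Set (E m)} (hs : MeasurableSet s) (hU : s ⊆ U)
    (h : ∀ y ∈ U, (shape f y (nrm f y)).trace = 0 ∧
      (m : ℝ) ≤ (shape f y (nrm f y) * shape f y (nrm f y)).trace) :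
    volume (tube f '' dom f s) ≤ ENNReal.ofReal (sphVol (m + 1) / (m + 2) / aMin m) *
      ∫⁻ y in s, ENNReal.ofReal √(gram f y).det := by
  refine (area (P.dom_meas hs hU) fun x hx => (P.tube_jac (hU hx.1)).1).trans ?_
  rw [← lintegral_indicator (P.dom_meas hs hU), ← lintegral_const_mul' _ _ ENNReal.ofReal_ne_top,
    ← lintegral_indicator hs]
  refine (lintegral_prod_le _).trans (lintegral_mono fun y => ?_)
  by_cases hy : y ∈ s
  swap
  · have : ∀ z, (y, z) ∉ dom f s := fun z hz => hy hz.1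
    simp [this]
  obtain ⟨κ, k1, k2, k3⟩ := diagz (P.gram_pos (hU hy)) (P.sff_symm (hU hy) (nrm f y))
  have hb : ∀ z : ℝ × ℝ, (dom f s).indicator (fun x =>
      ENNReal.ofReal |(mat fun j => fderiv ℝ (tube f) x (bX m j)).det|) (y, z) ≤
      ENNReal.ofReal √(gram f y).det *
      ((Ioo (0 : ℝ) 1).indicator (fun ρ => ENNReal.ofReal (ρ ^ (m + 1))) z.1 *
      (Icc (-(π / 2)) (π / 2)).indicator
        (fun θ => ENNReal.ofReal (∏ i, max (cos θ - κ i * sin θ) 0)) z.2) := by
    intro z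
    by_cases hz : (y, z) ∈ dom f s
    swap
    · simp [hz]
    have hρ : 0 < z.1 := hz.2.1.1
    have hp : 0 ≤ ∏ i, max (cos z.2 - κ i * sin z.2) 0 := by positivity
    rw [indicator_of_mem hz, indicator_of_mem hz.2.1, indicator_of_mem hz.2.2.1,
      ← ENNReal.ofReal_mul (by positivity), ← ENNReal.ofReal_mul (by positivity)]
    refine (congrArg _ ?_).le
    rw [← sq_eq_sq₀ (abs_nonneg _) (by positivity), sq_abs, (P.tube_jac (x := (y, z)) (hU hy)).2,
      shape, (k3 _ _).1, mul_pow, Real.sq_sqrt (P.gram_pos (hU hy)).det_pos.le]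
    have : ∏ i, (z.1 * cos z.2 - κ i * (z.1 * sin z.2)) =
        z.1 ^ m * ∏ i, max (cos z.2 - κ i * sin z.2) 0 := by
      rw [← Fin.prod_const, ← Finset.prod_mul_distrib]
      refine Finset.prod_congr rfl fun i _ => ?_
      rw [max_eq_left ((k3 _ _).2 hz.2.2.2 i)]
      ring
    simp only [this]
    ring
  refine (lintegral_mono hb).trans ?_
  have c := cont_int κ
  rw [lintegral_const_mul' _ _ ENNReal.ofReal_ne_top, Measure.volume_eq_prod, lintegral_prod_mul
    (Measurable.indicator (by fun_prop) measurableSet_Ioo).aemeasurable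
    (Measurable.indicator c.measurable.ennreal_ofReal measurableSet_Icc).aemeasurable,
    lintegral_indicator measurableSet_Ioo, lintegral_indicator measurableSet_Icc,
    indicator_of_mem hy, mul_comm, ← ofReal_integral_eq_lintegral_ofReal,
    ← ofReal_integral_eq_lintegral_ofReal c.integrableOn_Icc (Eventually.of_forall fun _ => by
      positivity), ← ENNReal.ofReal_mul', ← integral_Ioc_eq_integral_Ioo,
    integral_Icc_eq_integral_Ioc, ← intervalIntegral.integral_of_le zero_le_one,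
    ← intervalIntegral.integral_of_le (by linarith [pi_pos]), integral_pow]
  · gcongr
    have := opt hm (k1.symm.trans (h y (hU hy)).1) ((h y (hU hy)).2.trans_eq k2)
    rw [le_div_iff₀ (aMin_pos hm), le_div_iff₀ (by positivity)]
    refine le_of_eq_of_le ?_ this
    unfold Phi
    push_cast
    field_simp
    ring
  · positivity
  · exact ((continuous_pow _).integrableOn_Icc (a := 0) (b := 1)).mono_set Ioo_subset_Icc_self
  · exact (ae_restrict_iff' measurableSet_Ioo).2 (Eventually.of_forall fun ρ hρ =>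
      (pow_pos hρ.1 _).le)

end Patch

end Vale.Agent.P224
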